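import Vale.Agent.P085.Normal

open scoped ComplexOrder

namespace Vale.Agent.Results.P085.Generator

/-- Every type II_1 factor on a separable Hilbert space is singly generated. -/
theorem result {H : Type*} [NormedAddCommGroup H] [InnerProductSpace ℂ H] [CompleteSpace H]
    [TopologicalSpace.SeparableSpace H] (M : VonNeumannAlgebra H)
    (hfactor : ∀ z ∈ M, (∀ x ∈ M, x * z = z * x) → ∃ c : ℂ, z = c • 1)
    (hinf : ¬ FiniteDimensional ℂ M.toStarSubalgebra)
    (τ : M.toStarSubalgebra →ₗ[ℂ] ℂ) (hone : τ 1 = 1)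
    (hpos : ∀ x, 0 ≤ τ (star x * x))
    (htrace : ∀ x y, τ (x * y) = τ (y * x))
    (hfaithful : ∀ x, τ (star x * x) = 0 → x = 0)
    (hnormal : ∀ (D : Set M.toStarSubalgebra) (a : M.toStarSubalgebra), D.Nonempty →
      DirectedOn (· ≤ ·) D → (∀ x ∈ D, 0 ≤ x) → IsLUB D a →
      IsLUB ((fun x => (τ x).re) '' D) (τ a).re) :
    ∃ x ∈ M, ∀ S : StarSubalgebra ℂ (H →L[ℂ] H),
      IsClosed (ContinuousLinearMapWOT.ofCLM '' (S : Set (H →L[ℂ] H))) → x ∈ S →
      M.toStarSubalgebra ≤ S := by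
  open Vale.Agent.P085 in
  let _ : TrAlg (MA M) := ⟨τ, hone, htrace, star_of_pos τ hone hpos,
    fun x => (Complex.nonneg_iff.1 (hpos x)).1, hfaithful⟩
  open Vale.Agent.P085 in
  refine NW.main (ON.nw fun a z hm h0 hz => ?_) hfactor hinf
  have := hnormal _ z (Set.range_nonempty a) (directedOn_range.2 hm.directed_le)
    (by rintro _ ⟨n, rfl⟩; exact h0 n) hz
  rw [← Set.range_comp] at this
  exact tendsto_atTop_isLUB (fun _ _ h => Vale.Agent.P085.rt_mono (hm h)) this

end Vale.Agent.Results.P085.Generator
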